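import Vale.Agent.P195.Len
import Mathlib.LinearAlgebra.Pi
import Mathlib.RingTheory.Finiteness.Prod

open CategoryTheory Abelian

universe u v w

set_option linter.unusedSectionVars false

namespace Vale.Agent.P195

section

variable (k : Type v) [CommRing k] [IsArtinianRing k] {R : Type u} [Ring R] [Algebra k R]
  [Module.Finite k R]

attribute [local instance] kmod kmod_tower linK

variable (M : ModuleCat.{u} R)

noncomputable def extCongr {X Y : ModuleCat.{u} R} (e : X ≅ Y) (j : ℕ) :
    Ext M X j ≃ₗ[k] Ext M Y j where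
  toLinearMap := (Ext.mk₀ e.hom).postcompOfLinear k M (add_zero j)
  invFun := (Ext.mk₀ e.inv).postcompOfLinear k M (add_zero j)
  left_inv x := by
    simp
  right_inv x := by
    simp

theorem el_congr {X Y : ModuleCat.{u} R} (e : X ≅ Y) (j : ℕ) : el k M X j = el k M Y j :=
  len_eq_of_equiv k (extCongr k M e j)

theorem el_of_subsingleton {X : ModuleCat.{u} R} (j : ℕ) [Subsingleton (Ext M X j)] :
    el k M X j = 0 :=
  len_eq_zero k

theorem el_prod [Module.Finite R M] (X Y : ModuleCat.{u} R) [Module.Finite R X]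
    [Module.Finite R Y] (j : ℕ) :
    el k M (ModuleCat.of R (X × Y)) j = el k M X j + el k M Y j := by
  have hXY : Module.Finite R (ModuleCat.of R (X × Y)) :=
    inferInstanceAs (Module.Finite R (X × Y))
  have := finite_ext k M (ModuleCat.of R (X × Y)) j
  have e1 : ModuleCat.ofHom (LinearMap.inl R X Y) ≫ ModuleCat.ofHom (LinearMap.fst R X Y) =
      𝟙 X := by
    ext x; rfl
  have e2 : ModuleCat.ofHom (LinearMap.inr R X Y) ≫ ModuleCat.ofHom (LinearMap.snd R X Y) =
      𝟙 Y := by
    ext x; rfl
  have e3 : ModuleCat.ofHom (LinearMap.inl R X Y) ≫ ModuleCat.ofHom (LinearMap.snd R X Y) =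
      0 := by
    ext x; rfl
  have e4 : ModuleCat.ofHom (LinearMap.fst R X Y) ≫ ModuleCat.ofHom (LinearMap.inl R X Y) +
    ModuleCat.ofHom (LinearMap.snd R X Y) ≫ ModuleCat.ofHom (LinearMap.inr R X Y) =
      𝟙 (ModuleCat.of R (X × Y)) := by
    apply ModuleCat.hom_ext
    apply LinearMap.ext
    rintro ⟨a, b⟩
    change (LinearMap.inl R X Y (LinearMap.fst R X Y (a, b)) +
      LinearMap.inr R X Y (LinearMap.snd R X Y (a, b))) = (a, b)
    simp
  refine len_add_of_exact k
    ((Ext.mk₀ (ModuleCat.ofHom (LinearMap.inl R X Y))).postcompOfLinear k M (add_zero j))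
    ((Ext.mk₀ (ModuleCat.ofHom (LinearMap.snd R X Y))).postcompOfLinear k M (add_zero j)) ?_ ?_ ?_
  · refine Function.LeftInverse.injective
      (g := ((Ext.mk₀ (ModuleCat.ofHom (LinearMap.fst R X Y))).postcompOfLinear k M
        (add_zero j))) ?_
    intro x
    simp [e1]
  · refine Function.RightInverse.surjective
      (g := ((Ext.mk₀ (ModuleCat.ofHom (LinearMap.inr R X Y))).postcompOfLinear k M
        (add_zero j))) ?_
    intro x
    simp [e2]
  · intro x
    constructor
    · intro h
      refine ⟨((Ext.mk₀ (ModuleCat.ofHom (LinearMap.fst R X Y))).postcompOfLinear k M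
        (add_zero j)) x, ?_⟩
      have h2 : x.comp (Ext.mk₀ (𝟙 (ModuleCat.of R (X × Y)))) (add_zero j) = x := by simp
      rw [← e4] at h2
      conv_rhs => rw [← h2]
      have h' : x.comp (Ext.mk₀ (ModuleCat.ofHom (LinearMap.snd R X Y))) (add_zero j) = 0 := h
      rw [Ext.mk₀_add, Ext.comp_add, ← Ext.mk₀_comp_mk₀, ← Ext.mk₀_comp_mk₀]
      rw [← Ext.comp_assoc_of_second_deg_zero, ← Ext.comp_assoc_of_second_deg_zero, h']
      simp
    · rintro ⟨y, rfl⟩
      simp [e3]

theorem el_pi [Module.Finite R M] (j : ℕ) : ∀ (a : ℕ) (W : Fin a → ModuleCat.{u} R)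
    [∀ i, Module.Finite R (W i)],
    el k M (ModuleCat.of R (∀ i, W i)) j = ∑ i, el k M (W i) j := by
  intro a
  induction a with
  | zero =>
    intro W _
    simp only [Finset.univ_eq_empty, Finset.sum_empty]
    have h0 : Subsingleton (Ext M (ModuleCat.of R (∀ i, W i)) j) := by
      refine ⟨fun a b => ?_⟩
      have h : 𝟙 (ModuleCat.of R (∀ i, W i)) = 0 := by
        apply ModuleCat.hom_ext
        apply LinearMap.ext
        intro x
        funext i
        exact i.elim0
      have ha : a = a.comp (Ext.mk₀ (𝟙 _)) (add_zero j) := by simp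
      have hb : b = b.comp (Ext.mk₀ (𝟙 _)) (add_zero j) := by simp
      rw [ha, hb, h]
      simp
    exact el_of_subsingleton k M j
  | succ n ih =>
    intro W _
    rw [Fin.sum_univ_succ, ← ih (fun i => W i.succ)]
    have : Module.Finite R (ModuleCat.of R (∀ i : Fin n, W i.succ)) :=
      inferInstanceAs (Module.Finite R (∀ i : Fin n, W i.succ))
    rw [← el_prod k M (W 0) (ModuleCat.of R (∀ i : Fin n, W i.succ))]
    exact (el_congr k M (Fin.consLinearEquiv R (fun i => W i)).toModuleIso j).symm

end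

end Vale.Agent.P195
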