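import Vale.Agent.P195.KS
import Mathlib.Algebra.Category.ModuleCat.Basic

universe u v w

namespace Vale.Agent.P195

section

variable {R : Type u} [Ring R] [IsArtinianRing R]

theorem exists_dec : ∀ (n : ℕ) (X : Type u) [AddCommGroup X] [Module R X] [Module.Finite R X],
    (Module.length R X).toNat ≤ n →
    ∃ (ι : Type) (_ : Fintype ι) (W : ι → ModuleCat.{u} R),
      (∀ t, Module.Finite R (W t) ∧ Indec R (W t)) ∧ Nonempty (X ≃ₗ[R] (∀ t, W t)) := by
  intro n
  induction n with
  | zero =>
    intro X _ _ _ hX
    have h1 : Module.length R X ≠ ⊤ := Module.length_ne_top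
    have h2 : (Module.length R X).toNat = 0 := by lia
    rw [ENat.toNat_eq_zero] at h2
    have h3 : Module.length R X = 0 := h2.resolve_right h1
    rw [Module.length_eq_zero_iff] at h3
    refine ⟨Empty, inferInstance, fun t => t.elim, fun t => t.elim, ⟨?_⟩⟩
    exact { toFun := fun _ t => t.elim
            map_add' := fun _ _ => by funext t; exact t.elim
            map_smul' := fun _ _ => by funext t; exact t.elim
            invFun := fun _ => 0
            left_inv := fun _ => Subsingleton.elim _ _
            right_inv := fun _ => by funext t; exact t.elim }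
  | succ n ih =>
    intro X _ _ _ hX
    by_cases hI : Indec R X
    · refine ⟨Unit, inferInstance, fun _ => ModuleCat.of R X, fun _ => ⟨inferInstance, hI⟩,
        ⟨?_⟩⟩
      exact (LinearEquiv.funUnique Unit R X).symm
    · rcases subsingleton_or_nontrivial X with hs | hnt
      · exact ih X (by rw [Module.length_eq_zero]; simp)
      · have hex : ∃ e : Module.End R X, e * e = e ∧ e ≠ 0 ∧ e ≠ 1 := by
          by_contra hne
          push Not at hne
          apply hI
          refine ⟨hnt, fun e he => ?_⟩
          by_cases h0 : e = 0
          · exact Or.inl h0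
          · exact Or.inr (hne e he h0)
        obtain ⟨e, he, he0, he1⟩ := hex
        have hc : IsCompl (LinearMap.range e) (LinearMap.ker e) :=
          LinearMap.IsIdempotentElem.isCompl he
        have hr : LinearMap.range e ≠ ⊤ := by
          intro h
          apply he1
          apply LinearMap.ext
          intro x
          obtain ⟨y, rfl⟩ := LinearMap.range_eq_top.1 h x
          exact LinearMap.congr_fun he y
        have hk : LinearMap.ker e ≠ ⊤ := by
          intro h
          exact he0 (LinearMap.ker_eq_top.1 h)
        have hlt : ∀ U : Submodule R X, U ≠ ⊤ → (Module.length R U).toNat ≤ n := by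
          intro U hU
          have h1 : Module.length R X ≠ ⊤ := Module.length_ne_top
          have h2 := Submodule.length_lt hU
          have h3 : Module.length R U ≠ ⊤ := Module.length_ne_top
          rw [← ENat.natCast_toNat h1, ← ENat.natCast_toNat h3] at h2
          have h4 : (Module.length R U).toNat < (Module.length R X).toNat := by
            exact_mod_cast h2
          lia
        obtain ⟨ι, i1, W, hW, ⟨a⟩⟩ := ih (LinearMap.range e) (hlt _ hr)
        obtain ⟨κ, i2, W', hW', ⟨b⟩⟩ := ih (LinearMap.ker e) (hlt _ hk)
        refine ⟨ι ⊕ κ, inferInstance, Sum.elim W W', ?_, ⟨?_⟩⟩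
        · rintro (t | t)
          · exact hW t
          · exact hW' t
        · let e1 : X ≃ₗ[R] (LinearMap.range e × LinearMap.ker e) :=
            (Submodule.prodEquivOfIsCompl _ _ hc).symm
          let e2 : (LinearMap.range e × LinearMap.ker e) ≃ₗ[R] ((∀ t, W t) × (∀ t, W' t)) :=
            a.prodCongr b
          let e3 : ((∀ t, W t) × (∀ t, W' t)) ≃ₗ[R] (∀ s : ι ⊕ κ, (Sum.elim W W' s : ModuleCat.{u} R)) :=
            (LinearEquiv.sumPiEquivProdPi R ι κ
              (fun s => ((Sum.elim W W' s : ModuleCat.{u} R) : Type u))).symm
          exact (e1.trans e2).trans e3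

end

end Vale.Agent.P195
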