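import Vale.Agent.P195.Defs
import Vale.Agent.P195.Dec

open CategoryTheory

universe u v w

namespace Vale.Agent.P195

section

variable {R : Type u} [Ring R] [IsArtinianRing R]

theorem inAdd_list (V : ModuleCat.{u} R) [Module.Finite R V] :
    ∃ (r : ℕ) (W : Fin r → ModuleCat.{u} R), (∀ i, Module.Finite R (W i)) ∧
      ∀ X : ModuleCat.{u} R, InAdd V X →
        ∃ (a : ℕ) (f : Fin a → Fin r), Nonempty (X ≃ₗ[R] (∀ j, W (f j))) := by
  obtain ⟨ι, _, W, hW, ⟨eV⟩⟩ := exists_dec (R := R) _ V le_rfl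
  let eι : Fin (Fintype.card ι) ≃ ι := (Fintype.equivFin ι).symm
  refine ⟨Fintype.card ι, fun j => W (eι j), fun j => (hW _).1, ?_⟩
  rintro X ⟨n, Y, ⟨eX⟩⟩
  have hXY : Module.Finite R (X × Y) := Module.Finite.equiv eX.symm
  have hX : Module.Finite R X := Module.Finite.of_surjective (LinearMap.fst R X Y)
    LinearMap.fst_surjective
  obtain ⟨σ, _, Z, hZ, ⟨eZ⟩⟩ := exists_dec (R := R) _ X le_rfl
  have key : ∀ s : σ, ∃ j : Fin (Fintype.card ι), Nonempty (Z s ≃ₗ[R] W (eι j)) := by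
    intro s
    classical
    have hZf := (hZ s).1
    let U : Fin n × ι → Type u := fun q => W q.2
    let c : (Fin n → V) ≃ₗ[R] (∀ q : Fin n × ι, U q) :=
      { toFun := fun v q => eV (v q.1) q.2
        map_add' := fun v w => by funext q; simp
        map_smul' := fun r v => by funext q; simp
        invFun := fun u t => eV.symm (fun i => u (t, i))
        left_inv := fun v => by funext t; simp
        right_inv := fun u => by funext q; simp }
    let i : Z s →ₗ[R] (∀ q : Fin n × ι, U q) :=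
      c.toLinearMap ∘ₗ eX.toLinearMap ∘ₗ LinearMap.inl R X Y ∘ₗ eZ.symm.toLinearMap ∘ₗ
        LinearMap.single R (fun t => Z t) s
    let p : (∀ q : Fin n × ι, U q) →ₗ[R] Z s :=
      LinearMap.proj s ∘ₗ eZ.toLinearMap ∘ₗ LinearMap.fst R X Y ∘ₗ eX.symm.toLinearMap ∘ₗ
        c.symm.toLinearMap
    have hip : p ∘ₗ i = LinearMap.id := by
      apply LinearMap.ext
      intro x
      simp [p, i]
    obtain ⟨q, ⟨e⟩⟩ := (hZ s).2.exists_factor U (fun q => (hW q.2).2) i p hip
    refine ⟨eι.symm q.2, ?_⟩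
    rw [Equiv.apply_symm_apply]
    exact ⟨e⟩
  choose f e using key
  let eσ : Fin (Fintype.card σ) ≃ σ := (Fintype.equivFin σ).symm
  refine ⟨Fintype.card σ, fun j => f (eσ j), ⟨?_⟩⟩
  let e1 : (∀ s, Z s) ≃ₗ[R] (∀ s, W (eι (f s))) :=
    LinearEquiv.piCongrRight (fun s => (e s).some)
  let e2 : (∀ j, W (eι (f (eσ j)))) ≃ₗ[R] (∀ s, W (eι (f s))) :=
    LinearEquiv.piCongrLeft R (fun s => (W (eι (f s)) : Type u)) eσ
  exact (eZ.trans e1).trans e2.symm

end

end Vale.Agent.P195
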