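import Mathlib.RingTheory.Artinian.Module
import Mathlib.RingTheory.HopkinsLevitzki
import Mathlib.RingTheory.Length
import Mathlib.RingTheory.Jacobson.Semiprimary
import Mathlib.Algebra.Module.Projective

universe u v w

namespace Vale.Agent.P195

section

variable {R : Type u} [Ring R] [IsArtinianRing R]

theorem semisimple_of_jac (X : Type u) [AddCommGroup X] [Module R X]
    (h : Ring.jacobson R • (⊤ : Submodule R X) = ⊥) : IsSemisimpleModule R X := by
  have h1 : Ring.jacobson R ≤ Module.annihilator R X := by
    intro a ha
    rw [Module.mem_annihilator]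
    intro x
    have : a • x ∈ Ring.jacobson R • (⊤ : Submodule R X) :=
      Submodule.smul_mem_smul ha trivial
    rw [h] at this
    exact this
  rw [← SetLike.coe_subset_coe, ← Module.isTorsionBySet_iff_subset_annihilator] at h1
  let _ := h1.module
  exact (h1.semilinearMap.isSemisimpleModule_iff_of_bijective Function.bijective_id).2
    inferInstance

theorem jac_le (X : Type u) [AddCommGroup X] [Module R X] :
    Module.jacobson R X ≤ Ring.jacobson R • (⊤ : Submodule R X) := by
  apply Module.jacobson_le_of_eq_bot
  have : IsSemisimpleModule R (X ⧸ (Ring.jacobson R • (⊤ : Submodule R X))) := by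
    apply semisimple_of_jac
    rw [eq_bot_iff, Submodule.smul_le]
    intro a ha x _
    obtain ⟨y, rfl⟩ := Submodule.mkQ_surjective _ x
    rw [← map_smul]
    simp only [Submodule.mkQ_apply, Submodule.mem_bot, Submodule.Quotient.mk_eq_zero]
    exact Submodule.smul_mem_smul ha trivial
  exact IsSemisimpleModule.jacobson_eq_bot R _

theorem exists_cover (L : Type u) [AddCommGroup L] [Module R L] [Module.Finite R L] :
    ∃ (P : Type u) (_ : AddCommGroup P) (_ : Module R P) (p : P →ₗ[R] L),
      Module.Finite R P ∧ Module.Projective R P ∧ Function.Surjective p ∧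
        LinearMap.ker p ≤ Ring.jacobson R • (⊤ : Submodule R P) := by
  let Q : ℕ → Prop := fun n => ∃ (P : Type u) (_ : AddCommGroup P) (_ : Module R P)
    (p : P →ₗ[R] L), Module.Finite R P ∧ Module.Projective R P ∧ Function.Surjective p ∧
      Module.length R P = n
  have hQ : ∃ n, Q n := by
    obtain ⟨n, f, hf⟩ := Module.Finite.exists_fin' R L
    have h1 : Module.length R (Fin n → R) ≠ ⊤ := Module.length_ne_top
    exact ⟨(Module.length R (Fin n → R)).toNat, Fin n → R, inferInstance, inferInstance, f,
      inferInstance, inferInstance, hf, (ENat.natCast_toNat h1).symm⟩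
  classical
  obtain ⟨P, i1, i2, p, hPf, hPp, hp, hlen⟩ := Nat.find_spec hQ
  have hmin : ∀ m, Q m → Nat.find hQ ≤ m := fun m hm => Nat.find_min' hQ hm
  have hA : ∀ h : Module.End R P, p ∘ₗ h = p → Function.Surjective h := by
    intro h hh
    obtain ⟨n, hn⟩ := Filter.eventually_atTop.1 (h.eventually_isCompl_ker_pow_range_pow)
    have hc := hn (n + 1) (by lia)
    have hpow : ∀ t : ℕ, p ∘ₗ (h ^ t) = p := by
      intro t
      induction t with
      | zero => rfl
      | succ t ih =>
        rw [pow_succ, Module.End.mul_eq_comp, ← LinearMap.comp_assoc, ih, hh]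
    have htop : LinearMap.range (h ^ (n + 1)) = ⊤ := by
      by_contra hne
      have h1 : Module.length R (LinearMap.range (h ^ (n + 1))) < Module.length R P :=
        Submodule.length_lt hne
      have hproj : Module.Projective R (LinearMap.range (h ^ (n + 1))) := by
        refine Module.Projective.of_split (LinearMap.range (h ^ (n + 1))).subtype
          (Submodule.projectionOnto _ _ hc.symm) ?_
        apply LinearMap.ext
        intro x
        exact Submodule.projectionOnto_apply_left hc.symm x
      have h2 : Module.length R (LinearMap.range (h ^ (n + 1))) ≠ ⊤ := Module.length_ne_top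
      have h3 : Q (Module.length R (LinearMap.range (h ^ (n + 1)))).toNat := by
        refine ⟨LinearMap.range (h ^ (n + 1)), inferInstance, inferInstance,
          p ∘ₗ (LinearMap.range (h ^ (n + 1))).subtype, inferInstance, hproj, ?_,
          (ENat.natCast_toNat h2).symm⟩
        intro y
        obtain ⟨x, rfl⟩ := hp y
        refine ⟨⟨(h ^ (n + 1)) x, x, rfl⟩, ?_⟩
        exact LinearMap.congr_fun (hpow (n + 1)) x
      have h4 := hmin _ h3
      have h5 : Module.length R P ≤ Module.length R (LinearMap.range (h ^ (n + 1))) := by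
        rw [hlen, ← ENat.natCast_toNat h2]
        exact_mod_cast h4
      exact absurd h1 (not_lt.2 h5)
    intro y
    have : y ∈ LinearMap.range (h ^ (n + 1)) := by rw [htop]; trivial
    obtain ⟨x, hx⟩ := this
    rw [pow_succ'] at hx
    exact ⟨_, hx⟩
  refine ⟨P, i1, i2, p, hPf, hPp, hp, ?_⟩
  refine le_trans ?_ (jac_le P)
  refine le_sInf ?_
  intro N hN
  have hN : IsCoatom N := hN
  by_contra hle
  have hsup : LinearMap.ker p ⊔ N = ⊤ := by
    apply hN.2
    exact lt_of_le_of_ne le_sup_right (fun h => hle (by rw [h]; exact le_sup_left))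
  have hs : Function.Surjective (N.mkQ ∘ₗ (LinearMap.ker p).subtype) := by
    intro y
    obtain ⟨x, rfl⟩ := N.mkQ_surjective y
    have hx : x ∈ LinearMap.ker p ⊔ N := by rw [hsup]; trivial
    obtain ⟨a, ha, b, hb, rfl⟩ := Submodule.mem_sup.1 hx
    refine ⟨⟨a, ha⟩, ?_⟩
    simp [hb]
  obtain ⟨h', hh'⟩ := Module.projective_lifting_property _ N.mkQ hs
  have hsur := hA (LinearMap.id - (LinearMap.ker p).subtype ∘ₗ h') (by
    ext x
    simp)
  apply hN.1
  rw [eq_top_iff]
  intro y _
  obtain ⟨x, rfl⟩ := hsur y
  have := LinearMap.congr_fun hh' x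
  rw [← Submodule.ker_mkQ N, LinearMap.mem_ker]
  simp at this ⊢
  rw [this]
  simp

end

end Vale.Agent.P195
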