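import Vale.Agent.P195.Syz
import Mathlib.Algebra.Exact.Basic

open CategoryTheory Abelian

universe u v w

set_option linter.unusedSectionVars false

namespace Vale.Agent.P195

section

variable (k : Type v) [CommRing k] [IsArtinianRing k] {R : Type u} [Ring R] [Algebra k R]
  [Module.Finite k R]

attribute [local instance] kmod kmod_tower linK

include k in
theorem syz_data {M : ModuleCat.{u} R} [Module.Finite R M] {N : ℕ}
    (hAR : ∀ j, 1 ≤ j → j ≤ N →
      Subsingleton (Ext M M j) ∧ Subsingleton (Ext M (ModuleCat.of R R) j))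
    (hnp : ¬ Module.Projective R M) :
    ∀ (n : ℕ) (K : ModuleCat.{u} R), n ≤ N → IsSyzygy M n K →
      Module.Finite R K ∧ ¬ Module.Projective R K ∧
      (∀ j, n < j → j ≤ N → Subsingleton (Ext M K j)) ∧
      ∃ θ : Ext M K n, SyzClass θ ∧ θ ≠ 0 ∧
        (1 ≤ n → ∃ (P : ModuleCat.{u} R) (i : K ⟶ P), Module.Finite R P ∧
          Module.Projective R P ∧ ∀ (Y : ModuleCat.{u} R) (g : K ⟶ Y),
            θ.comp (Ext.mk₀ g) (add_zero n) = 0 → ∃ q : P ⟶ Y, i ≫ q = g) := by
  have hR : IsNoetherianRing R := isNoetherian_of_tower k inferInstance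
  intro n
  induction n with
  | zero =>
    rintro K - ⟨e⟩
    refine ⟨Module.Finite.equiv e.symm.toLinearEquiv, ?_, ?_, Ext.mk₀ e.inv,
      syzClass_zero e, ?_, ?_⟩
    · intro h
      exact hnp (Module.Projective.of_equiv e.toLinearEquiv)
    · intro j hj hjN
      exact subsingleton_of_retract (F := M) e.hom e.inv e.hom_inv_id j (hAR j hj hjN).1
    · intro h
      apply hnp
      have h1 : (𝟙 M : M ⟶ M) = 0 := by
        apply Ext.homEquiv₀.symm.injective
        change Ext.mk₀ (𝟙 M) = Ext.mk₀ 0
        rw [← e.inv_hom_id, ← Ext.mk₀_comp_mk₀, h]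
        simp
      have h2 : Subsingleton M := by
        refine ⟨fun a b => ?_⟩
        have ha := congrArg (fun f : M ⟶ M => f.hom a) h1
        have hb := congrArg (fun f : M ⟶ M => f.hom b) h1
        simp at ha hb
        rw [ha, hb]
      have h3 : Module.Free R M := Module.Free.of_subsingleton R M
      exact Module.Projective.of_free
    · intro h
      lia
  | succ n ih =>
    rintro K hnN ⟨L, P, i, p, hPf, hPp, hi, he, hp, hL⟩
    obtain ⟨hLf, hLp, hLv, θ, hθ, hθ0, -⟩ := ih L (by lia) hL
    have hS := scOf_shortExact i p he hi hp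
    have hPproj : Projective (scOf i p he).X₂ :=
      (IsProjective.iff_projective P).1 hPp
    have hKf : Module.Finite R K := Module.Finite.of_injective i hi
    have hfac : ∀ (Y : ModuleCat.{u} R) (g : K ⟶ Y),
        (θ.comp hS.extClass (rfl : n + 1 = n + 1)).comp (Ext.mk₀ g) (add_zero (n + 1)) = 0 →
          ∃ q : P ⟶ Y, ModuleCat.ofHom i ≫ q = g := by
      intro Y g hg
      exact syz_factor hS hθ g hg
    have hθ' : θ.comp hS.extClass (rfl : n + 1 = n + 1) ≠ 0 := by
      intro h0
      obtain ⟨q, hq⟩ := hfac K (𝟙 K) (by rw [h0]; simp)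
      apply hLp
      have h1 : q.hom ∘ₗ i = LinearMap.id := by
        have := congrArg ModuleCat.Hom.hom hq
        simpa using this
      obtain ⟨-, s, hs⟩ := (he.split_tfae'.out 0 1 rfl rfl).2 ⟨hp, q.hom, h1⟩
      exact Module.Projective.of_split s p hs
    refine ⟨hKf, ?_, ?_, θ.comp hS.extClass (rfl : n + 1 = n + 1), syzClass_succ hS hθ,
      hθ', ?_⟩
    · intro hK
      have := subsingleton_proj k (M := M) (P := K) (hAR (n + 1) (by lia) hnN).2
      exact hθ' (Subsingleton.elim _ _)
    · intro j hj hjN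
      obtain ⟨j', rfl⟩ : ∃ j', j = j' + 1 := ⟨j - 1, by lia⟩
      have h1 := hLv j' (by lia) (by lia)
      have h2 := subsingleton_proj k (M := M) (P := P) (hAR (j' + 1) (by lia) hjN).2
      refine subsingleton_of_forall_eq 0 fun x => ?_
      obtain ⟨y, hy⟩ := Ext.covariant_sequence_exact₁ M hS x (Subsingleton.elim _ _) rfl
      rw [← hy, Subsingleton.elim y 0]
      simp
    · intro _
      exact ⟨P, ModuleCat.ofHom i, hPf, hPp, hfac⟩

end

end Vale.Agent.P195
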