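import Mathlib.Algebra.Category.ModuleCat.Ext.HasExt
import Mathlib.Algebra.Homology.DerivedCategory.Ext.Basic
import Mathlib.RingTheory.Finiteness.Basic

open CategoryTheory Abelian

universe u

namespace Vale.Agent.P195

def ExtVanish {R : Type u} [Ring R] (M : ModuleCat.{u} R) (i : ℕ) : Prop :=
  Subsingleton (Ext M M i) ∧ Subsingleton (Ext M (ModuleCat.of R R) i)

def IsSyzygy {R : Type u} [Ring R] (M : ModuleCat.{u} R) : ℕ → ModuleCat.{u} R → Prop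
  | 0, K => Nonempty (K ≅ M)
  | n + 1, K => ∃ (L P : ModuleCat.{u} R) (i : K →ₗ[R] P) (p : P →ₗ[R] L),
      Module.Finite R P ∧ Module.Projective R P ∧ Function.Injective i ∧
        Function.Exact i p ∧ Function.Surjective p ∧ IsSyzygy M n L

def IsSumOf {R : Type u} [Ring R] {r : ℕ} (V : Fin r → ModuleCat.{u} R)
    (X : ModuleCat.{u} R) : Prop :=
  ∃ (a : ℕ) (f : Fin a → Fin r), Nonempty (X ≃ₗ[R] (∀ j, V (f j)))

def TwoTerm {R : Type u} [Ring R] {r : ℕ} (V : Fin r → ModuleCat.{u} R)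
    (K : ModuleCat.{u} R) : Prop :=
  ∃ (X₁ X₀ : ModuleCat.{u} R) (i : X₁ →ₗ[R] X₀) (p : X₀ →ₗ[R] K),
    IsSumOf V X₁ ∧ IsSumOf V X₀ ∧ Function.Injective i ∧ Function.Exact i p ∧
      Function.Surjective p

def InAdd {R : Type u} [Ring R] (V X : ModuleCat.{u} R) : Prop :=
  ∃ (n : ℕ) (Y : ModuleCat.{u} R), Nonempty ((X × Y) ≃ₗ[R] (Fin n → V))

def IsIgusaTodorov (R : Type u) [Ring R] : Prop :=
  ∃ (n : ℕ) (V : ModuleCat.{u} R), Module.Finite R V ∧
    ∀ M : ModuleCat.{u} R, Module.Finite R M →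
      ∃ (K X₁ X₀ : ModuleCat.{u} R) (i : X₁ →ₗ[R] X₀) (p : X₀ →ₗ[R] K),
        IsSyzygy M n K ∧ InAdd V X₁ ∧ InAdd V X₀ ∧ Function.Injective i ∧
          Function.Exact i p ∧ Function.Surjective p

end Vale.Agent.P195
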