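import Vale.Agent.P195.Lin
import Mathlib.Algebra.Category.ModuleCat.Ext.DimensionShifting

open CategoryTheory Abelian

universe u v

namespace Vale.Agent.P195

section Fin

variable (k : Type v) [CommRing k] {R : Type u} [Ring R] [Algebra k R]

attribute [local instance] kmod kmod_tower linK

theorem finite_hom [IsNoetherianRing k] [Module.Finite k R] (N X : ModuleCat.{u} R)
    [Module.Finite R N] [Module.Finite R X] : Module.Finite k (N ⟶ X) := by
  obtain ⟨n, f, hf⟩ := Module.Finite.exists_fin' R N
  have hX : Module.Finite k X := Module.Finite.trans R X
  let φ : (N ⟶ X) →ₗ[k] (Fin n → X) :=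
    { toFun := fun g i => g.hom (f (Pi.single i 1))
      map_add' := fun a b => by
        funext i
        simp
      map_smul' := fun c a => by
        funext i
        rfl }
  refine Module.Finite.of_injective φ ?_
  intro a b hab
  ext x
  obtain ⟨y, rfl⟩ := hf x
  have : (a.hom.comp f) = b.hom.comp f := by
    apply LinearMap.pi_ext'
    intro i
    apply LinearMap.ext_ring
    exact congrFun hab i
  exact LinearMap.congr_fun this y

theorem finite_ext [IsNoetherianRing k] [Module.Finite k R] (N X : ModuleCat.{u} R)
    [hN : Module.Finite R N] [Module.Finite R X] (i : ℕ) : Module.Finite k (Ext N X i) := by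
  have hR : IsNoetherianRing R := isNoetherian_of_tower k inferInstance
  induction i generalizing N with
  | zero =>
    have := finite_hom k N X
    exact Module.Finite.equiv (Ext.linearEquiv₀ (R := k)).symm
  | succ n ih =>
    obtain ⟨m, f, hf⟩ := Module.Finite.exists_fin' R N
    let exac := LinearMap.shortExact_shortComplexKer hf
    have h1 : Projective (f.shortComplexKer).X₂ :=
      inferInstanceAs (Projective (ModuleCat.of R (Fin m → R)))
    have h2 : Module.Finite R (f.shortComplexKer).X₁ :=
      inferInstanceAs (Module.Finite R (LinearMap.ker f))
    have := ih (f.shortComplexKer).X₁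
    exact Module.Finite.of_surjective (exac.extClass.precompOfLinear k X (add_comm 1 n))
      (precomp_extClass_surjective_of_projective_X₂ X exac n)

end Fin

end Vale.Agent.P195
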