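import Vale.Agent.P195.Data

open CategoryTheory Abelian

universe u v w

set_option linter.unusedSectionVars false

namespace Vale.Agent.P195

section

variable (k : Type v) [CommRing k] [IsArtinianRing k] {R : Type u} [Ring R] [Algebra k R]
  [Module.Finite k R]

attribute [local instance] kmod kmod_tower linK

theorem len_range_eq_zero {A B : Type*} [AddCommGroup A] [Module k A] [AddCommGroup B]
    [Module k B] (f : A →ₗ[k] B) (h : ∀ x, f x = 0) : len k (LinearMap.range f) = 0 := by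
  have : Subsingleton (LinearMap.range f) := by
    refine ⟨?_⟩
    rintro ⟨_, x, rfl⟩ ⟨_, y, rfl⟩
    simp [h]
  exact len_eq_zero k

theorem len_range_pos {A B : Type*} [AddCommGroup A] [Module k A] [AddCommGroup B]
    [Module k B] [Module.Finite k A] (f : A →ₗ[k] B) (x : A) (h : f x ≠ 0) :
    0 < len k (LinearMap.range f) := by
  have : Nontrivial (LinearMap.range f) := by
    refine ⟨⟨f x, x, rfl⟩, 0, ?_⟩
    intro h'
    exact h (congrArg Subtype.val h')
  exact len_pos k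

theorem len_range_surj {A B : Type*} [AddCommGroup A] [Module k A] [AddCommGroup B]
    [Module k B] (f : A →ₗ[k] B) (h : Function.Surjective f) :
    len k (LinearMap.range f) = len k B := by
  rw [LinearMap.range_eq_top.2 h]
  exact len_top k

theorem typeA {M : ModuleCat.{u} R} [Module.Finite R M] {N : ℕ}
    (hAR : ∀ j, 1 ≤ j → j ≤ N →
      Subsingleton (Ext M M j) ∧ Subsingleton (Ext M (ModuleCat.of R R) j))
    (hnp : ¬ Module.Projective R M) {m : ℕ} (hm : 2 ≤ m) (hmN : m + 1 ≤ N)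
    {S : ShortComplex (ModuleCat.{u} R)} (hS : S.ShortExact) [Module.Finite R S.X₁]
    [Module.Finite R S.X₂] (hsyz : IsSyzygy M m S.X₃) :
    ∃ l, (l = m ∨ l = m + 1) ∧ el k M S.X₂ l ≠ el k M S.X₁ l ∧
      ∀ j, l < j → j ≤ N → el k M S.X₂ j = el k M S.X₁ j := by
  obtain ⟨hKf, hKp, hKv, θ, hθ, hθ0, hfac⟩ := syz_data k hAR hnp m S.X₃ (by lia) hsyz
  obtain ⟨P, i, hPf, hPp, hfac⟩ := hfac (by lia)
  have fin : ∀ (X : ModuleCat.{u} R) [Module.Finite R X] (j : ℕ), Module.Finite k (Ext M X j) :=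
    fun X _ j => finite_ext k M X j
  have hpi : ∀ j, m < j → j ≤ N → len k (LinearMap.range (piMap k M S j)) = 0 := by
    intro j hj hjN
    have := hKv j hj hjN
    exact len_range_eq_zero k _ (fun x => Subsingleton.elim _ _)
  have hdel : ∀ j, m < j → j ≤ N → len k (LinearMap.range (deltaMap k M hS j)) = 0 := by
    intro j hj hjN
    have := hKv j hj hjN
    refine len_range_eq_zero k _ (fun x => ?_)
    rw [Subsingleton.elim x 0, map_zero]
  by_cases hc : deltaMap k M hS m θ = 0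
  · obtain ⟨y, hy⟩ := Ext.covariant_sequence_exact₃ M hS θ rfl hc
    obtain ⟨x, hx⟩ := hθ.surj S.X₂ 0 m (add_zero m) y
    obtain ⟨f, rfl⟩ := Ext.homEquiv₀.symm.surjective x
    have h1 : θ.comp (Ext.mk₀ (f ≫ S.g - 𝟙 S.X₃)) (add_zero m) = 0 := by
      rw [sub_eq_add_neg, Ext.mk₀_add, Ext.comp_add, Ext.mk₀_neg, Ext.comp_neg,
        ← Ext.mk₀_comp_mk₀, Ext.comp_mk₀_id, ← Ext.comp_assoc_of_third_deg_zero]
      change (θ.comp (Ext.homEquiv₀.symm f) _).comp (Ext.mk₀ S.g) _ + -θ = 0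
      rw [hx, hy]
      simp
    obtain ⟨q, hq⟩ := hfac _ _ h1
    have hsurj : ∀ j, 1 ≤ j → j ≤ N → Function.Surjective (piMap k M S j) := by
      intro j hj hjN z
      refine ⟨z.comp (Ext.mk₀ f) (add_zero j), ?_⟩
      have h2 := subsingleton_proj k (M := M) (P := P) (hAR j hj hjN).2
      have h3 : z.comp (Ext.mk₀ (f ≫ S.g - 𝟙 S.X₃)) (add_zero j) = 0 := by
        rw [← hq, ← Ext.mk₀_comp_mk₀, ← Ext.comp_assoc_of_third_deg_zero,
          Subsingleton.elim (z.comp (Ext.mk₀ i) (add_zero j)) 0]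
        simp
      rw [sub_eq_add_neg, Ext.mk₀_add, Ext.comp_add, Ext.mk₀_neg, Ext.comp_neg,
        ← Ext.mk₀_comp_mk₀, Ext.comp_mk₀_id, ← Ext.comp_assoc_of_third_deg_zero,
        add_neg_eq_zero] at h3
      exact h3
    have hdel' : ∀ j, 1 ≤ j → j ≤ N → len k (LinearMap.range (deltaMap k M hS j)) = 0 := by
      intro j hj hjN
      have h2 := el_X₃ k M hS j
      rw [len_range_surj k _ (hsurj j hj hjN)] at h2
      unfold el at h2
      lia
    refine ⟨m, Or.inl rfl, ?_, ?_⟩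
    · obtain ⟨m', rfl⟩ : ∃ m', m = m' + 1 := ⟨m - 1, by lia⟩
      have h2 := el_X₁ k M hS m'
      rw [hdel' m' (by lia) (by lia)] at h2
      have h3 := el_X₂ k M hS (m' + 1)
      rw [len_range_surj k _ (hsurj (m' + 1) (by lia) (by lia))] at h3
      have h4 : 0 < len k (Ext M S.X₃ (m' + 1)) := by
        have := fin S.X₃ (m' + 1)
        have : Nontrivial (Ext M S.X₃ (m' + 1)) := ⟨θ, 0, hθ0⟩
        exact len_pos k
      lia
    · intro j hj hjN
      obtain ⟨j', rfl⟩ : ∃ j', j = j' + 1 := ⟨j - 1, by lia⟩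
      have h2 := el_X₁ k M hS j'
      rw [hdel' j' (by lia) (by lia)] at h2
      have h3 := el_X₂ k M hS (j' + 1)
      rw [hpi (j' + 1) (by lia) hjN] at h3
      lia
  · refine ⟨m + 1, Or.inr rfl, ?_, ?_⟩
    · have h2 := el_X₁ k M hS m
      have h3 := el_X₂ k M hS (m + 1)
      rw [hpi (m + 1) (by lia) (by lia)] at h3
      have := fin S.X₃ m
      have h4 := len_range_pos k (deltaMap k M hS m) θ hc
      lia
    · intro j hj hjN
      obtain ⟨j', rfl⟩ : ∃ j', j = j' + 1 := ⟨j - 1, by lia⟩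
      have h2 := el_X₁ k M hS j'
      rw [hdel j' (by lia) (by lia)] at h2
      have h3 := el_X₂ k M hS (j' + 1)
      rw [hpi (j' + 1) (by lia) hjN] at h3
      lia

theorem typeC {M : ModuleCat.{u} R} [Module.Finite R M] {N : ℕ}
    (hAR : ∀ j, 1 ≤ j → j ≤ N →
      Subsingleton (Ext M M j) ∧ Subsingleton (Ext M (ModuleCat.of R R) j))
    (hnp : ¬ Module.Projective R M) {m : ℕ} (hm : 1 ≤ m) (hmN : m + 1 ≤ N)
    {S : ShortComplex (ModuleCat.{u} R)} (hS : S.ShortExact) [Module.Finite R S.X₁]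
    [Module.Finite R S.X₃] (hsyz : IsSyzygy M m S.X₂)
    (hno : ∀ (P : ModuleCat.{u} R) (a : S.X₂ ⟶ P) (b : P ⟶ S.X₃), Module.Finite R P →
      Module.Projective R P → a ≫ b ≠ S.g) :
    el k M S.X₃ m ≠ el k M S.X₁ (m + 1) ∧
      ∀ j, m < j → j + 1 ≤ N → el k M S.X₃ j = el k M S.X₁ (j + 1) := by
  obtain ⟨hKf, hKp, hKv, θ, hθ, hθ0, hfac⟩ := syz_data k hAR hnp m S.X₂ (by lia) hsyz
  obtain ⟨P, i, hPf, hPp, hfac⟩ := hfac (by lia)
  have fin : ∀ (X : ModuleCat.{u} R) [Module.Finite R X] (j : ℕ), Module.Finite k (Ext M X j) :=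
    fun X _ j => finite_ext k M X j
  have hiota : ∀ j, m ≤ j → j + 1 ≤ N →
      len k (LinearMap.range (iotaMap k M S (j + 1))) = 0 := by
    intro j hj hjN
    have := hKv (j + 1) (by lia) hjN
    exact len_range_eq_zero k _ (fun x => Subsingleton.elim _ _)
  have hpi : ∀ j, m < j → j ≤ N → len k (LinearMap.range (piMap k M S j)) = 0 := by
    intro j hj hjN
    have := hKv j hj hjN
    refine len_range_eq_zero k _ (fun x => ?_)
    rw [Subsingleton.elim x 0, map_zero]
  constructor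
  · have h1 := el_X₃ k M hS m
    have h2 := el_X₁ k M hS m
    rw [hiota m le_rfl hmN] at h2
    have h3 : piMap k M S m θ ≠ 0 := by
      intro h
      obtain ⟨q, hq⟩ := hfac _ S.g h
      exact hno P i q hPf hPp hq
    have := fin S.X₂ m
    have h4 := len_range_pos k (piMap k M S m) θ h3
    lia
  · intro j hj hjN
    have h1 := el_X₃ k M hS j
    have h2 := el_X₁ k M hS j
    rw [hiota j (by lia) hjN] at h2
    rw [hpi j hj (by lia)] at h1
    lia

end

end Vale.Agent.P195
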