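import Mathlib.RingTheory.Artinian.Module
import Mathlib.RingTheory.HopkinsLevitzki
import Mathlib.RingTheory.Length
import Mathlib.LinearAlgebra.Pi
import Mathlib.LinearAlgebra.Projection

universe u v w

namespace Vale.Agent.P195

section

variable {R : Type u} [Ring R]

structure Indec (R : Type u) [Ring R] (X : Type w) [AddCommGroup X] [Module R X] : Prop where
  nontriv : Nontrivial X
  idem : ∀ e : Module.End R X, e * e = e → e = 0 ∨ e = 1

variable {X : Type w} [AddCommGroup X] [Module R X]

theorem Indec.fitting [IsArtinian R X] [IsNoetherian R X] (hX : Indec R X)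
    (f : Module.End R X) : IsNilpotent f ∨ Function.Bijective f := by
  obtain ⟨n, hn⟩ := Filter.eventually_atTop.1 (f.eventually_isCompl_ker_pow_range_pow)
  have hc := hn (n + 1) (by lia)
  have h1 := hX.idem (Submodule.projection _ _ hc) (by
    apply LinearMap.ext
    intro x
    simp)
  rcases h1 with h | h
  · right
    have hker : LinearMap.ker (f ^ (n + 1)) = ⊥ := by
      rw [eq_bot_iff]
      intro x hx
      have h2 := Submodule.projection_apply_of_mem_left hc hx
      rw [h] at h2
      simpa using h2.symm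
    have hinj : Function.Injective f := by
      rw [← LinearMap.ker_eq_bot, eq_bot_iff, ← hker]
      intro x hx
      rw [LinearMap.mem_ker] at hx ⊢
      rw [pow_succ, Module.End.mul_apply, hx, map_zero]
    exact ⟨hinj, IsArtinian.surjective_of_injective_endomorphism f hinj⟩
  · left
    refine ⟨n + 1, ?_⟩
    have hker : LinearMap.ker (f ^ (n + 1)) = ⊤ := by
      rw [eq_top_iff]
      intro x _
      have h2 : (Submodule.projection _ _ hc) x ∈ LinearMap.ker (f ^ (n + 1)) := by
        rw [Submodule.projection_apply]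
        exact (Submodule.projectionOnto _ _ hc x).2
      rw [h] at h2
      exact h2
    exact LinearMap.ker_eq_top.1 hker

theorem Indec.add_bij [IsArtinian R X] [IsNoetherian R X] (hX : Indec R X)
    (f g : Module.End R X) (h : Function.Bijective (f + g)) :
    Function.Bijective f ∨ Function.Bijective g := by
  let e := LinearEquiv.ofBijective (f + g) h
  rcases hX.fitting (e.symm.toLinearMap ∘ₗ f) with h1 | h1
  · right
    have h2 : IsUnit (1 - e.symm.toLinearMap ∘ₗ f : Module.End R X) := h1.isUnit_one_sub
    have h3 : (1 - e.symm.toLinearMap ∘ₗ f : Module.End R X) = e.symm.toLinearMap ∘ₗ g := by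
      rw [sub_eq_iff_eq_add, ← LinearMap.comp_add, add_comm g f]
      apply LinearMap.ext
      intro x
      exact (e.symm_apply_apply x).symm
    rw [h3, Module.End.isUnit_iff] at h2
    have h4 : (g : X → X) = e ∘ (e.symm.toLinearMap ∘ₗ g) := by
      funext x
      simp
    rw [h4]
    exact e.bijective.comp h2
  · left
    have h4 : (f : X → X) = e ∘ (e.symm.toLinearMap ∘ₗ f) := by
      funext x
      simp
    rw [h4]
    exact e.bijective.comp h1

theorem Indec.sum_bij [IsArtinian R X] [IsNoetherian R X] (hX : Indec R X) {ι : Type*}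
    (s : Finset ι) (f : ι → Module.End R X) (h : Function.Bijective (∑ t ∈ s, f t : Module.End R X)) :
    ∃ t ∈ s, Function.Bijective (f t) := by
  classical
  induction s using Finset.induction_on with
  | empty =>
    exfalso
    have := hX.nontriv
    obtain ⟨x, y, hxy⟩ := exists_pair_ne X
    exact hxy (h.1 (by simp))
  | insert a s ha ih =>
    rw [Finset.sum_insert ha] at h
    rcases hX.add_bij _ _ h with h1 | h1
    · exact ⟨a, Finset.mem_insert_self a s, h1⟩
    · obtain ⟨t, ht, h2⟩ := ih h1
      exact ⟨t, Finset.mem_insert_of_mem ht, h2⟩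

theorem Indec.equiv_of_retract {W : Type*} [AddCommGroup W] [Module R W] (hX : Nontrivial X)
    (hW : Indec R W) (a : X →ₗ[R] W) (b : W →ₗ[R] X) (hab : b ∘ₗ a = LinearMap.id) :
    Nonempty (X ≃ₗ[R] W) := by
  have hid : ∀ x, b (a x) = x := fun x => LinearMap.congr_fun hab x
  rcases hW.idem (a ∘ₗ b) (by
    apply LinearMap.ext
    intro x
    simp [Module.End.mul_apply, hid]) with h | h
  · exfalso
    obtain ⟨x, y, hxy⟩ := exists_pair_ne X
    apply hxy
    have h1 : ∀ z : X, z = 0 := by
      intro z
      have h2 := congrArg b (LinearMap.congr_fun h (a z))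
      simpa [hid] using h2
    rw [h1 x, h1 y]
  · refine ⟨LinearEquiv.ofLinearMap a b ?_ hab⟩
    exact h

theorem Indec.exists_factor [IsArtinian R X] [IsNoetherian R X] (hX : Indec R X) {ι : Type}
    [Fintype ι] (W : ι → Type w) [∀ t, AddCommGroup (W t)] [∀ t, Module R (W t)]
    (hW : ∀ t, Indec R (W t)) (i : X →ₗ[R] (∀ t, W t)) (p : (∀ t, W t) →ₗ[R] X)
    (hip : p ∘ₗ i = LinearMap.id) : ∃ t, Nonempty (X ≃ₗ[R] W t) := by
  classical
  have h1 : (∑ t, (p ∘ₗ LinearMap.single R W t) ∘ₗ (LinearMap.proj t ∘ₗ i) :
      Module.End R X) = LinearMap.id := by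
    rw [← hip]
    apply LinearMap.ext
    intro x
    simp only [LinearMap.sum_apply, LinearMap.comp_apply, LinearMap.proj_apply]
    rw [← map_sum]
    congr 1
    exact LinearMap.sum_single_apply W (i x)
  obtain ⟨t, -, ht⟩ := hX.sum_bij Finset.univ
    (fun t => (p ∘ₗ LinearMap.single R W t) ∘ₗ (LinearMap.proj t ∘ₗ i)) (by
      rw [h1]
      exact Function.bijective_id)
  refine ⟨t, ?_⟩
  let e := LinearEquiv.ofBijective _ ht
  refine Indec.equiv_of_retract hX.nontriv (hW t) (LinearMap.proj t ∘ₗ i)
    (e.symm.toLinearMap ∘ₗ (p ∘ₗ LinearMap.single R W t)) ?_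
  apply LinearMap.ext
  intro x
  exact e.symm_apply_apply x

end

end Vale.Agent.P195
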