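import Vale.Agent.P195.Fin

open CategoryTheory Abelian

universe u v w

set_option linter.unusedSectionVars false

namespace Vale.Agent.P195

section Len

variable (k : Type v) [CommRing k]

noncomputable def len (A : Type w) [AddCommGroup A] [Module k A] : ℕ :=
  (Module.length k A).toNat

variable {A : Type*} {B : Type*} {C : Type*} [AddCommGroup A] [Module k A]
  [AddCommGroup B] [Module k B] [AddCommGroup C] [Module k C]

theorem len_add_of_exact [IsArtinianRing k] [Module.Finite k B] (f : A →ₗ[k] B) (g : B →ₗ[k] C)
    (hf : Function.Injective f) (hg : Function.Surjective g) (h : Function.Exact f g) :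
    len k B = len k A + len k C := by
  have hA : Module.Finite k A := Module.Finite.of_injective f hf
  have hC : Module.Finite k C := Module.Finite.of_surjective g hg
  have h1 : Module.length k A ≠ ⊤ := Module.length_ne_top
  have h2 : Module.length k C ≠ ⊤ := Module.length_ne_top
  unfold len
  rw [Module.length_eq_add_of_exact f g hf hg h, ENat.toNat_add h1 h2]

theorem len_rank_nullity [IsArtinianRing k] [Module.Finite k A] (f : A →ₗ[k] B) :
    len k A = len k (LinearMap.ker f) + len k (LinearMap.range f) := by
  refine len_add_of_exact k (LinearMap.ker f).subtype f.rangeRestrict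
    (Submodule.subtype_injective _) f.surjective_rangeRestrict ?_
  intro x
  simp [Subtype.ext_iff]

theorem len_eq_of_equiv (e : A ≃ₗ[k] B) : len k A = len k B := by
  unfold len
  rw [e.length_eq]

theorem len_eq_zero [Subsingleton A] : len k A = 0 := by
  unfold len
  rw [Module.length_eq_zero]
  rfl

theorem len_pos [IsArtinianRing k] [Module.Finite k A] [Nontrivial A] : 0 < len k A := by
  have h1 : Module.length k A ≠ ⊤ := Module.length_ne_top
  have h2 : 0 < Module.length k A := Module.length_pos
  unfold len
  rw [Nat.pos_iff_ne_zero]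
  intro h
  rw [ENat.toNat_eq_zero] at h
  rcases h with h | h
  · exact h2.ne' h
  · exact h1 h

theorem len_top : len k (⊤ : Submodule k A) = len k A :=
  len_eq_of_equiv k Submodule.topEquiv

end Len

section ExtLen

variable (k : Type v) [CommRing k] [IsArtinianRing k] {R : Type u} [Ring R] [Algebra k R]
  [Module.Finite k R]

attribute [local instance] kmod kmod_tower linK

noncomputable def el (M X : ModuleCat.{u} R) (j : ℕ) : ℕ := len k (Ext M X j)

variable (M : ModuleCat.{u} R) {S : ShortComplex (ModuleCat.{u} R)} (hS : S.ShortExact)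

noncomputable def iotaMap (S : ShortComplex (ModuleCat.{u} R)) (j : ℕ) :
    Ext M S.X₁ j →ₗ[k] Ext M S.X₂ j :=
  (Ext.mk₀ S.f).postcompOfLinear k M (add_zero j)

noncomputable def piMap (S : ShortComplex (ModuleCat.{u} R)) (j : ℕ) :
    Ext M S.X₂ j →ₗ[k] Ext M S.X₃ j :=
  (Ext.mk₀ S.g).postcompOfLinear k M (add_zero j)

noncomputable def deltaMap {S : ShortComplex (ModuleCat.{u} R)} (hS : S.ShortExact) (j : ℕ) :
    Ext M S.X₃ j →ₗ[k] Ext M S.X₁ (j + 1) :=
  hS.extClass.postcompOfLinear k M rfl

include hS in
theorem ker_pi (j : ℕ) : LinearMap.ker (piMap k M S j) = LinearMap.range (iotaMap k M S j) := by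
  have h := Ext.covariant_sequence_exact₂' M hS j
  rw [ShortComplex.ab_exact_iff_function_exact] at h
  ext x
  exact h x

theorem ker_delta (j : ℕ) :
    LinearMap.ker (deltaMap k M hS j) = LinearMap.range (piMap k M S j) := by
  have h := Ext.covariant_sequence_exact₃' M hS j (j + 1) rfl
  rw [ShortComplex.ab_exact_iff_function_exact] at h
  ext x
  exact h x

theorem ker_iota (j : ℕ) :
    LinearMap.ker (iotaMap k M S (j + 1)) = LinearMap.range (deltaMap k M hS j) := by
  have h := Ext.covariant_sequence_exact₁' M hS j (j + 1) rfl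
  rw [ShortComplex.ab_exact_iff_function_exact] at h
  ext x
  exact h x

variable [Module.Finite R M] [Module.Finite R S.X₁] [Module.Finite R S.X₂] [Module.Finite R S.X₃]

include hS in
theorem el_X₂ (j : ℕ) : el k M S.X₂ j =
    len k (LinearMap.range (iotaMap k M S j)) + len k (LinearMap.range (piMap k M S j)) := by
  have := finite_ext k M S.X₂ j
  rw [← ker_pi k M hS]
  exact len_rank_nullity k (piMap k M S j)

theorem el_X₃ (j : ℕ) : el k M S.X₃ j =
    len k (LinearMap.range (piMap k M S j)) + len k (LinearMap.range (deltaMap k M hS j)) := by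
  have := finite_ext k M S.X₃ j
  rw [← ker_delta k M hS]
  exact len_rank_nullity k (deltaMap k M hS j)

theorem el_X₁ (j : ℕ) : el k M S.X₁ (j + 1) =
    len k (LinearMap.range (deltaMap k M hS j)) +
      len k (LinearMap.range (iotaMap k M S (j + 1))) := by
  have := finite_ext k M S.X₁ (j + 1)
  rw [← ker_iota k M hS]
  exact len_rank_nullity k (iotaMap k M S (j + 1))

end ExtLen

end Vale.Agent.P195
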