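import Mathlib.Algebra.Category.ModuleCat.Ext.HasExt
import Mathlib.Algebra.Homology.DerivedCategory.Ext.Linear
import Mathlib.Algebra.Homology.DerivedCategory.Ext.ExactSequences
import Mathlib.Algebra.Homology.ShortComplex.ModuleCat
import Mathlib.RingTheory.Artinian.Module
import Mathlib.RingTheory.HopkinsLevitzki
import Mathlib.RingTheory.Length

open CategoryTheory Abelian

universe u v

namespace Vale.Agent.P195

section Lin

variable (k : Type v) [CommRing k] (R : Type u) [Ring R] [Algebra k R]

@[instance_reducible]
def kmod (M : ModuleCat.{u} R) : Module k M := Module.compHom M (algebraMap k R)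

attribute [local instance] kmod

theorem kmod_tower (M : ModuleCat.{u} R) : IsScalarTower k R M where
  smul_assoc c r m := by
    change (c • r) • m = (algebraMap k R c) • (r • m)
    rw [Algebra.smul_def, mul_smul]

attribute [local instance] kmod_tower

@[instance_reducible]
noncomputable def linK : Linear k (ModuleCat.{u} R) where
  homModule _ _ := inferInstance

end Lin

end Vale.Agent.P195
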