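import Mathlib.LinearAlgebra.Dimension.Finite
import Mathlib.LinearAlgebra.FiniteDimensional.Basic
import Mathlib.LinearAlgebra.Dimension.StrongRankCondition
import Mathlib.Data.Rat.Defs

namespace Vale.Agent.P195

theorem triangular_card {E : Type*} [AddCommGroup E] [Module ℚ E] [FiniteDimensional ℚ E]
    (T : Finset ℕ) (w : ℕ → E) (ψ : ℕ → (E →ₗ[ℚ] ℚ))
    (h1 : ∀ l ∈ T, ψ l (w l) ≠ 0) (h2 : ∀ l ∈ T, ∀ j ∈ T, l < j → ψ l (w j) = 0) :
    T.card ≤ Module.finrank ℚ E := by
  have hli : LinearIndependent ℚ (fun l : T => w l) := by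
    rw [Fintype.linearIndependent_iff]
    intro c hc
    by_contra hne
    push Not at hne
    obtain ⟨i₀, hi₀⟩ := hne
    let B : Finset T := Finset.univ.filter (fun i => c i ≠ 0)
    have hB : B.Nonempty := ⟨i₀, by simp [B, hi₀]⟩
    obtain ⟨l, hl, hmin⟩ := B.exists_min_image (fun i => (i : ℕ)) hB
    have hcl : c l ≠ 0 := by simpa [B] using hl
    have h3 := congrArg (ψ l) hc
    rw [map_sum, map_zero, Finset.sum_eq_single l] at h3
    · rw [map_smul, smul_eq_mul] at h3
      rcases mul_eq_zero.1 h3 with h | h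
      · exact hcl h
      · exact h1 l l.2 h
    · intro j _ hjl
      rw [map_smul, smul_eq_mul]
      by_cases hcj : c j = 0
      · rw [hcj, zero_mul]
      · have hjB : j ∈ B := by simp [B, hcj]
        have h4 := hmin j hjB
        have h5 : (l : ℕ) ≠ j := fun h => hjl (Subtype.ext h.symm)
        rw [h2 l l.2 j j.2 (lt_of_le_of_ne h4 h5), mul_zero]
    · intro h
      exact absurd (Finset.mem_univ l) h
  have := hli.fintype_card_le_finrank
  simpa using this

end Vale.Agent.P195
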