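import Vale.Agent.P195.Func
import Vale.Agent.P195.LinAlg

open CategoryTheory Abelian

universe u v w

set_option linter.unusedSectionVars false

namespace Vale.Agent.P195

section

variable (k : Type v) [CommRing k] [IsArtinianRing k] {R : Type u} [Ring R] [Algebra k R]
  [Module.Finite k R]

attribute [local instance] kmod kmod_tower linK

include k in
theorem mainA {M : ModuleCat.{u} R} [Module.Finite R M] {N r : ℕ}
    (hAR : ∀ j, 1 ≤ j → j ≤ N →
      Subsingleton (Ext M M j) ∧ Subsingleton (Ext M (ModuleCat.of R R) j))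
    (V : Fin r → ModuleCat.{u} R) [∀ i, Module.Finite R (V i)] (T : Finset ℕ)
    (hT : ∀ m ∈ T, 2 ≤ m ∧ m + 1 ≤ N ∧ ∃ K, IsSyzygy M m K ∧ TwoTerm V K)
    (hcard : 2 * r < T.card) : Module.Projective R M := by
  by_contra hnp
  have key : ∀ m : T, ∃ (l : ℕ) (φ : (Fin r → ℚ) →ₗ[ℚ] ℚ), ((l = m ∨ l = m + 1) ∧
      φ (fun i => (el k M (V i) l : ℚ)) ≠ 0 ∧
      ∀ j, l < j → j ≤ N → φ (fun i => (el k M (V i) j : ℚ)) = 0) := by
    rintro ⟨m, hm⟩
    obtain ⟨hm2, hmN, K, hK, X₁, X₀, i, p, ⟨a, f, ⟨c₁⟩⟩, ⟨b, g, ⟨c₀⟩⟩, hi, he, hp⟩ := hT m hm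
    have hS := scOf_shortExact i p he hi hp
    have f1 : Module.Finite R X₁ := Module.Finite.equiv c₁.symm
    have f2 : Module.Finite R X₀ := Module.Finite.equiv c₀.symm
    obtain ⟨l, hl, hne, hz⟩ := typeA k hAR hnp hm2 hmN hS hK
    have e1 : ∀ j, el k M X₁ j = ∑ t, el k M (V (f t)) j := fun j => by
      rw [← el_pi k M j a (fun t => V (f t))]
      exact el_congr k M c₁.toModuleIso j
    have e2 : ∀ j, el k M X₀ j = ∑ t, el k M (V (g t)) j := fun j => by
      rw [← el_pi k M j b (fun t => V (g t))]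
      exact el_congr k M c₀.toModuleIso j
    let φ : (Fin r → ℚ) →ₗ[ℚ] ℚ := (∑ t : Fin b, LinearMap.proj (g t)) -
      ∑ t : Fin a, LinearMap.proj (f t)
    have hφ : ∀ j, φ (fun i => (el k M (V i) j : ℚ)) =
        (el k M X₀ j : ℚ) - (el k M X₁ j : ℚ) := by
      intro j
      rw [e1, e2]
      simp [φ, LinearMap.sum_apply]
    refine ⟨l, φ, hl, ?_, ?_⟩
    · rw [hφ, sub_ne_zero]
      exact_mod_cast hne
    · intro j hj hjN
      rw [hφ, sub_eq_zero]
      exact_mod_cast hz j hj hjN
  choose l φ hl hne hz using key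
  have hlN : ∀ m : T, l m ≤ N := by
    intro m
    have := (hT m m.2).2.1
    rcases hl m with h | h <;> lia
  let L : Finset ℕ := Finset.univ.image l
  have hcard2 : T.card ≤ 2 * L.card := by
    have h1 : (Finset.univ : Finset T).card ≤ 2 * L.card := by
      refine Finset.card_le_mul_card_image _ 2 ?_
      intro a ha
      have h2 : (Finset.univ.filter (fun x : T => l x = a)).card ≤ ({a - 1, a} : Finset ℕ).card := by
        refine Finset.card_le_card_of_injOn (fun x => (x : ℕ)) ?_ ?_
        · intro x hx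
          have hx' : l x = a := by simpa using hx
          have := hl x
          simp only [Finset.coe_insert, Finset.coe_singleton, Set.mem_insert_iff,
            Set.mem_singleton_iff]
          lia
        · intro x _ y _ h
          exact Subtype.ext h
      exact h2.trans Finset.card_le_two
    simpa using h1
  have hchoose : ∀ a : L, ∃ m : T, l m = a := by
    rintro ⟨a, ha⟩
    simpa [L] using ha
  choose c hc using hchoose
  let ψ : ℕ → ((Fin r → ℚ) →ₗ[ℚ] ℚ) := fun a => if h : a ∈ L then φ (c ⟨a, h⟩) else 0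
  have h3 : L.card ≤ Module.finrank ℚ (Fin r → ℚ) := by
    refine triangular_card L (fun j i => (el k M (V i) j : ℚ)) ψ ?_ ?_
    · intro a ha
      have h4 := hne (c ⟨a, ha⟩)
      rw [hc ⟨a, ha⟩] at h4
      simpa [ψ, ha] using h4
    · intro a ha j hj haj
      have hjN : j ≤ N := by
        obtain ⟨m, hm⟩ : ∃ m : T, l m = j := by simpa [L] using hj
        rw [← hm]
        exact hlN m
      have h4 := hz (c ⟨a, ha⟩) j (by rw [hc ⟨a, ha⟩]; exact haj) hjN
      simpa [ψ, ha] using h4
  rw [Module.finrank_fin_fun] at h3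
  lia

end

end Vale.Agent.P195
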