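import Vale.Agent.P195.MainA
import Vale.Agent.P195.Cover

open CategoryTheory Abelian

universe u v w

set_option linter.unusedSectionVars false

namespace Vale.Agent.P195

section

variable {R : Type u} [Ring R]

theorem smul_top_eq_bot_iff (I : Ideal R) (X : Type u) [AddCommGroup X] [Module R X] :
    I • (⊤ : Submodule R X) = ⊥ ↔ ∀ a ∈ I, ∀ x : X, a • x = 0 := by
  rw [eq_bot_iff, Submodule.smul_le]
  constructor
  · intro h a ha x
    exact h a ha x trivial
  · intro h a ha x _
    exact h a ha x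

theorem IsSyzygy.finite [IsNoetherianRing R] {M : ModuleCat.{u} R} [Module.Finite R M] :
    ∀ (n : ℕ) (K : ModuleCat.{u} R), IsSyzygy M n K → Module.Finite R K := by
  intro n
  cases n with
  | zero =>
    rintro K ⟨e⟩
    exact Module.Finite.equiv e.symm.toLinearEquiv
  | succ n =>
    rintro K ⟨L, P, i, p, hPf, hPp, hi, he, hp, hL⟩
    exact Module.Finite.of_injective i hi

theorem exists_min_syzygy [IsArtinianRing R] {M : ModuleCat.{u} R} [Module.Finite R M] {n : ℕ}
    (hJ : Ring.jacobson R ^ (2 * n + 1) = ⊥) :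
    ∀ m : ℕ, ∃ K : ModuleCat.{u} R, IsSyzygy M m K ∧
      (1 ≤ m → Ring.jacobson R ^ (2 * n) • (⊤ : Submodule R K) = ⊥) := by
  intro m
  induction m with
  | zero => exact ⟨M, ⟨Iso.refl M⟩, fun h => by lia⟩
  | succ m ih =>
    obtain ⟨L, hL, -⟩ := ih
    have hLf := IsSyzygy.finite m L hL
    obtain ⟨P, i1, i2, p, hPf, hPp, hp, hker⟩ := exists_cover (R := R) L
    refine ⟨ModuleCat.of R (LinearMap.ker p), ⟨L, ModuleCat.of R P,
      (LinearMap.ker p).subtype, p, hPf, hPp, Submodule.subtype_injective _,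
      LinearMap.exact_subtype_ker_map p, hp, hL⟩, fun _ => ?_⟩
    rw [smul_top_eq_bot_iff]
    rintro a ha ⟨x, hx⟩
    apply Subtype.ext
    have h1 : a • x ∈ Ring.jacobson R ^ (2 * n) • (Ring.jacobson R • (⊤ : Submodule R P)) :=
      Submodule.smul_mem_smul ha (hker hx)
    rw [← Submodule.mul_smul, ← Submodule.pow_succ, hJ, Submodule.bot_smul] at h1
    exact h1

theorem not_factor [IsNoetherianRing R] {n : ℕ} (hn : 1 ≤ n) {K P : ModuleCat.{u} R}
    [Module.Finite R K] [Module.Projective R P] (hK : ¬ Module.Projective R K)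
    (a : K →ₗ[R] P) (b : P →ₗ[R] K ⧸ (Ring.jacobson R ^ n • (⊤ : Submodule R K)))
    (hab : b ∘ₗ a = (Ring.jacobson R ^ n • (⊤ : Submodule R K)).mkQ) : False := by
  obtain ⟨b', hb'⟩ := Module.projective_lifting_property
    (Ring.jacobson R ^ n • (⊤ : Submodule R K)).mkQ b (Submodule.mkQ_surjective _)
  have h1 : ∀ x : K, x - b' (a x) ∈ Ring.jacobson R • (⊤ : Submodule R K) := by
    intro x
    have h2 : x - b' (a x) ∈ Ring.jacobson R ^ n • (⊤ : Submodule R K) := by
      rw [← Submodule.Quotient.mk_eq_zero, Submodule.Quotient.mk_sub, sub_eq_zero]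
      have h3 := LinearMap.congr_fun hab x
      have h4 := LinearMap.congr_fun hb' (a x)
      simp only [LinearMap.comp_apply, Submodule.mkQ_apply] at h3 h4
      rw [← h3, ← h4]
    exact Submodule.smul_mono_left (Ideal.pow_le_self (by lia)) h2
  have hsurj : Function.Surjective (b' ∘ₗ a) := by
    rw [← LinearMap.range_eq_top]
    have h5 : (⊤ : Submodule R (K ⧸ LinearMap.range (b' ∘ₗ a))) = ⊥ := by
      apply Submodule.FG.eq_bot_of_le_jacobson_smul (Module.Finite.fg_top)
      intro y _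
      obtain ⟨x, rfl⟩ := Submodule.mkQ_surjective _ y
      have h6 : (LinearMap.range (b' ∘ₗ a)).mkQ x =
          (LinearMap.range (b' ∘ₗ a)).mkQ (x - b' (a x)) := by
        rw [map_sub, sub_eq_self.2]
        simp only [Submodule.mkQ_apply, Submodule.Quotient.mk_eq_zero]
        exact ⟨x, rfl⟩
      rw [h6]
      have h7 : Submodule.map (LinearMap.range (b' ∘ₗ a)).mkQ
          (Ring.jacobson R • (⊤ : Submodule R K)) ≤
          Ring.jacobson R • (⊤ : Submodule R (K ⧸ LinearMap.range (b' ∘ₗ a))) := by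
        rw [Submodule.map_smul'']
        exact smul_mono_right _ le_top
      exact h7 ⟨_, h1 x, rfl⟩
    rw [eq_top_iff]
    intro x _
    have h8 : (LinearMap.range (b' ∘ₗ a)).mkQ x ∈
        (⊤ : Submodule R (K ⧸ LinearMap.range (b' ∘ₗ a))) := trivial
    rw [h5] at h8
    simpa using h8
  have hinj : Function.Injective (b' ∘ₗ a) :=
    IsNoetherian.injective_of_surjective_endomorphism _ hsurj
  let e := LinearEquiv.ofBijective (b' ∘ₗ a) ⟨hinj, hsurj⟩
  apply hK
  refine Module.Projective.of_split a (e.symm.toLinearMap ∘ₗ b') ?_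
  apply LinearMap.ext
  intro x
  exact e.symm_apply_apply x

end

section

variable (k : Type v) [CommRing k] [IsArtinianRing k] {R : Type u} [Ring R] [Algebra k R]
  [Module.Finite k R]

attribute [local instance] kmod kmod_tower linK

include k in
theorem mainB {M : ModuleCat.{u} R} [Module.Finite R M] {r n : ℕ} (hn : 1 ≤ n)
    (hJ : Ring.jacobson R ^ (2 * n + 1) = ⊥)
    (V : Fin r → ModuleCat.{u} R) [∀ i, Module.Finite R (V i)]
    (hV : ∀ X : ModuleCat.{u} R, Module.Finite R X →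
      Ring.jacobson R ^ n • (⊤ : Submodule R X) = ⊥ →
      ∃ (a : ℕ) (f : Fin a → Fin r), Nonempty (X ≃ₗ[R] (∀ j, V (f j))))
    (hAR : ∀ j, 1 ≤ j → j ≤ 2 * r + 2 →
      Subsingleton (Ext M M j) ∧ Subsingleton (Ext M (ModuleCat.of R R) j)) :
    Module.Projective R M := by
  have hR : IsArtinianRing R := isArtinian_of_tower k inferInstance
  by_contra hnp
  have key : ∀ m : ℕ, 1 ≤ m → m ≤ 2 * r + 1 → ∃ φ : ((Fin r → ℚ) × (Fin r → ℚ)) →ₗ[ℚ] ℚ,
      φ (fun i => (el k M (V i) m : ℚ), fun i => (el k M (V i) (m + 1) : ℚ)) ≠ 0 ∧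
      ∀ j, m < j → j ≤ 2 * r + 1 →
        φ (fun i => (el k M (V i) j : ℚ), fun i => (el k M (V i) (j + 1) : ℚ)) = 0 := by
    intro m hm1 hm2
    obtain ⟨K, hK, hKJ⟩ := exists_min_syzygy (M := M) hJ m
    have hKJ := hKJ hm1
    have hKf := IsSyzygy.finite m K hK
    have hKp : ¬ Module.Projective R K :=
      (syz_data k hAR hnp m K (by lia) hK).2.1
    set U : Submodule R K := Ring.jacobson R ^ n • (⊤ : Submodule R K) with hU
    have hUf : Module.Finite R U := inferInstance
    have hS := scOf_shortExact (K := ModuleCat.of R U) (P := K) (L := ModuleCat.of R (K ⧸ U))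
      U.subtype U.mkQ (LinearMap.exact_subtype_mkQ U) (Submodule.subtype_injective _)
      (Submodule.mkQ_surjective _)
    have f1 : Module.Finite R (ModuleCat.of R U) := hUf
    have f3 : Module.Finite R (ModuleCat.of R (K ⧸ U)) :=
      inferInstanceAs (Module.Finite R (K ⧸ U))
    obtain ⟨a, f, ⟨e1⟩⟩ := hV (ModuleCat.of R U) f1 (by
      rw [smul_top_eq_bot_iff]
      rintro c hc ⟨x, hx⟩
      apply Subtype.ext
      have h1 : c • x ∈ Ring.jacobson R ^ n • (Ring.jacobson R ^ n • (⊤ : Submodule R K)) :=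
        Submodule.smul_mem_smul hc hx
      rw [← Submodule.mul_smul, ← Submodule.pow_add _ (by lia), ← two_mul, hKJ] at h1
      exact h1)
    obtain ⟨b, g, ⟨e3⟩⟩ := hV (ModuleCat.of R (K ⧸ U)) f3 (by
      rw [smul_top_eq_bot_iff]
      intro c hc x
      obtain ⟨y, rfl⟩ := Submodule.mkQ_surjective _ x
      rw [← map_smul]
      simp only [Submodule.mkQ_apply, Submodule.Quotient.mk_eq_zero]
      exact Submodule.smul_mem_smul hc trivial)
    obtain ⟨hne, hz⟩ := typeC k hAR hnp hm1 (by lia) hS hK (by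
      intro P c d hPf hPp hcd
      refine not_factor hn hKp c.hom d.hom ?_
      exact congrArg ModuleCat.Hom.hom hcd)
    have q1 : ∀ j, el k M (ModuleCat.of R U) j = ∑ t, el k M (V (f t)) j := fun j => by
      rw [← el_pi k M j a (fun t => V (f t))]
      exact el_congr k M e1.toModuleIso j
    have q3 : ∀ j, el k M (ModuleCat.of R (K ⧸ U)) j = ∑ t, el k M (V (g t)) j := fun j => by
      rw [← el_pi k M j b (fun t => V (g t))]
      exact el_congr k M e3.toModuleIso j
    let φ : ((Fin r → ℚ) × (Fin r → ℚ)) →ₗ[ℚ] ℚ :=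
      (∑ t : Fin b, LinearMap.proj (g t)) ∘ₗ LinearMap.fst ℚ _ _ -
        (∑ t : Fin a, LinearMap.proj (f t)) ∘ₗ LinearMap.snd ℚ _ _
    have hφ : ∀ j, φ (fun i => (el k M (V i) j : ℚ), fun i => (el k M (V i) (j + 1) : ℚ)) =
        (el k M (ModuleCat.of R (K ⧸ U)) j : ℚ) - (el k M (ModuleCat.of R U) (j + 1) : ℚ) := by
      intro j
      rw [q1, q3]
      simp [φ]
    refine ⟨φ, ?_, ?_⟩
    · rw [hφ, sub_ne_zero]
      exact_mod_cast hne
    · intro j hj hjN
      rw [hφ, sub_eq_zero]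
      exact_mod_cast hz j hj (by lia)
  let ψ : ℕ → (((Fin r → ℚ) × (Fin r → ℚ)) →ₗ[ℚ] ℚ) := fun m =>
    if h : 1 ≤ m ∧ m ≤ 2 * r + 1 then (key m h.1 h.2).choose else 0
  have h3 : (Finset.Icc 1 (2 * r + 1)).card ≤
      Module.finrank ℚ ((Fin r → ℚ) × (Fin r → ℚ)) := by
    refine triangular_card (Finset.Icc 1 (2 * r + 1))
      (fun j => (fun i => (el k M (V i) j : ℚ), fun i => (el k M (V i) (j + 1) : ℚ))) ψ ?_ ?_
    · intro m hm
      have hm' := Finset.mem_Icc.1 hm
      have h4 := (key m hm'.1 hm'.2).choose_spec.1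
      simpa [ψ, hm'] using h4
    · intro m hm j hj hmj
      have hm' := Finset.mem_Icc.1 hm
      have hj' := Finset.mem_Icc.1 hj
      have h4 := (key m hm'.1 hm'.2).choose_spec.2 j hmj hj'.2
      simpa [ψ, hm'] using h4
  rw [Module.finrank_prod, Module.finrank_fin_fun, Nat.card_Icc] at h3
  lia

end

end Vale.Agent.P195
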