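import Vale.Agent.P195.AddV
import Vale.Agent.P195.MainB

open CategoryTheory Abelian

universe u v w

set_option linter.unusedSectionVars false

namespace Vale.Agent.P195

section

variable {R : Type u} [Ring R]

theorem IsSyzygy.congr {M : ModuleCat.{u} R} : ∀ (n : ℕ) (L K : ModuleCat.{u} R),
    IsSyzygy M n L → (K ≅ L) → IsSyzygy M n K := by
  intro n
  cases n with
  | zero =>
    rintro L K ⟨e⟩ e'
    exact ⟨e' ≪≫ e⟩
  | succ n =>
    rintro L K ⟨L', P, i, p, h1, h2, h3, h4, h5, h6⟩ e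
    refine ⟨L', P, i ∘ₗ e.toLinearEquiv.toLinearMap, p, h1, h2,
      h3.comp e.toLinearEquiv.injective, ?_, h5, h6⟩
    intro y
    rw [h4 y]
    constructor
    · rintro ⟨x, rfl⟩
      exact ⟨e.toLinearEquiv.symm x, by simp⟩
    · rintro ⟨x, rfl⟩
      exact ⟨_, rfl⟩

theorem IsSyzygy.trans {M L : ModuleCat.{u} R} {a : ℕ} (hL : IsSyzygy M a L) :
    ∀ (n : ℕ) (K : ModuleCat.{u} R), IsSyzygy L n K → IsSyzygy M (a + n) K := by
  intro n
  induction n with
  | zero =>
    rintro K ⟨e⟩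
    exact IsSyzygy.congr a L K hL e
  | succ n ih =>
    rintro K ⟨L', P, i, p, h1, h2, h3, h4, h5, h6⟩
    exact ⟨L', P, i, p, h1, h2, h3, h4, h5, ih L' h6⟩

theorem exists_syzygy [IsNoetherianRing R] {M : ModuleCat.{u} R} [Module.Finite R M] :
    ∀ m : ℕ, ∃ K : ModuleCat.{u} R, IsSyzygy M m K := by
  intro m
  induction m with
  | zero => exact ⟨M, ⟨Iso.refl M⟩⟩
  | succ m ih =>
    obtain ⟨L, hL⟩ := ih
    have hLf := IsSyzygy.finite m L hL
    obtain ⟨n, f, hf⟩ := Module.Finite.exists_fin' R L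
    exact ⟨ModuleCat.of R (LinearMap.ker f), L, ModuleCat.of R (Fin n → R),
      (LinearMap.ker f).subtype, f, inferInstanceAs (Module.Finite R (Fin n → R)),
      inferInstanceAs (Module.Projective R (Fin n → R)), Submodule.subtype_injective _,
      LinearMap.exact_subtype_ker_map f, hf, hL⟩

end

section

variable (k : Type v) [CommRing k] [IsArtinianRing k] {R : Type u} [Ring R] [Algebra k R]
  [Module.Finite k R]

include k in
theorem mainInf {M : ModuleCat.{u} R} [Module.Finite R M]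
    (hAR : ∀ j, 1 ≤ j →
      Subsingleton (Ext M M j) ∧ Subsingleton (Ext M (ModuleCat.of R R) j))
    (V : ModuleCat.{u} R) [Module.Finite R V]
    (hV : ∀ N : ℕ, ∃ m, N ≤ m ∧ ∃ (K X₁ X₀ : ModuleCat.{u} R) (i : X₁ →ₗ[R] X₀)
      (p : X₀ →ₗ[R] K), IsSyzygy M m K ∧ InAdd V X₁ ∧ InAdd V X₀ ∧ Function.Injective i ∧
          Function.Exact i p ∧ Function.Surjective p) :
    Module.Projective R M := by
  have hR : IsArtinianRing R := isArtinian_of_tower k inferInstance
  obtain ⟨r, W, hW, hVW⟩ := inAdd_list V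
  have hinf : {m : ℕ | 2 ≤ m ∧ ∃ K, IsSyzygy M m K ∧ TwoTerm W K}.Infinite := by
    rw [Set.infinite_iff_exists_gt]
    intro N
    obtain ⟨m, hm, K, X₁, X₀, i, p, h1, h2, h3, h4, h5, h6⟩ := hV (N + 2)
    exact ⟨m, ⟨by lia, K, h1, X₁, X₀, i, p, hVW X₁ h2, hVW X₀ h3, h4, h5, h6⟩, by lia⟩
  obtain ⟨T, hT, hcard⟩ := hinf.exists_subset_card_eq (2 * r + 1)
  refine mainA k (M := M) (N := T.sup id + 1) (fun j hj _ => hAR j hj) W T ?_ (by lia)
  intro m hm
  obtain ⟨h1, K, hK, hKV⟩ := hT hm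
  refine ⟨h1, ?_, K, hK, hKV⟩
  have := Finset.le_sup (f := id) hm
  simp only [id] at this
  lia

include k in
theorem mainIT (hIT : IsIgusaTodorov R) {M : ModuleCat.{u} R} [Module.Finite R M]
    (hAR : ∀ j, 1 ≤ j →
      Subsingleton (Ext M M j) ∧ Subsingleton (Ext M (ModuleCat.of R R) j)) :
    Module.Projective R M := by
  have hR : IsArtinianRing R := isArtinian_of_tower k inferInstance
  obtain ⟨n, V, hVf, hV⟩ := hIT
  refine mainInf k hAR V ?_
  intro N
  obtain ⟨L, hL⟩ := exists_syzygy (M := M) N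
  obtain ⟨K, X₁, X₀, i, p, hK, hKV⟩ := hV L (IsSyzygy.finite N L hL)
  exact ⟨N + n, by lia, K, X₁, X₀, i, p, hL.trans n K hK, hKV⟩

end

section

variable {R : Type u} [Ring R] [IsArtinianRing R]

theorem exists_simple_list : ∃ (r : ℕ) (S : Fin r → ModuleCat.{u} R),
    (∀ i, IsSimpleModule R (S i)) ∧
      ∀ X : ModuleCat.{u} R, IsSimpleModule R X → ∃ i, Nonempty (X ≃ₗ[R] S i) := by
  have h1 : IsSemisimpleModule R (R ⧸ Ring.jacobson R) := by
    have h0 : IsSemisimpleModule R (R ⧸ (Ring.jacobson R • (⊤ : Submodule R R))) := by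
      apply semisimple_of_jac
      rw [smul_top_eq_bot_iff]
      intro a ha x
      obtain ⟨y, rfl⟩ := Submodule.mkQ_surjective _ x
      rw [← map_smul]
      simp only [Submodule.mkQ_apply, Submodule.Quotient.mk_eq_zero]
      exact Submodule.smul_mem_smul ha trivial
    exact IsSemisimpleModule.of_surjective
      (Submodule.mapQ (Ring.jacobson R • (⊤ : Submodule R R)) (Ring.jacobson R) LinearMap.id
        (by
          rw [Submodule.smul_le]
          intro a ha x _
          exact (Ring.jacobson R).mul_mem_right x ha)) (by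
        intro y
        obtain ⟨x, rfl⟩ := Submodule.mkQ_surjective _ y
        exact ⟨Submodule.Quotient.mk x, rfl⟩)
  obtain ⟨r, S, e, hS⟩ :=
    IsSemisimpleModule.exists_linearEquiv_fin_dfinsupp R (R ⧸ Ring.jacobson R)
  refine ⟨r, fun i => ModuleCat.of R (S i), hS, ?_⟩
  intro X hX
  have hnt : Nontrivial X := IsSimpleModule.nontrivial R X
  obtain ⟨x, hx⟩ := exists_ne (0 : X)
  have hss : IsSemisimpleModule R X := inferInstance
  let g : (R ⧸ Ring.jacobson R) →ₗ[R] X :=
    (Ring.jacobson R).liftQ (LinearMap.toSpanSingleton R X x) (by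
      intro a ha
      have h2 := IsSemisimpleModule.jacobson_le_annihilator R X ha
      rw [Module.mem_annihilator] at h2
      rw [LinearMap.mem_ker, LinearMap.toSpanSingleton_apply]
      exact h2 x)
  have hg : g ≠ 0 := by
    intro h
    have h3 := LinearMap.congr_fun h ((Ring.jacobson R).mkQ 1)
    simp only [g, Submodule.mkQ_apply, Submodule.liftQ_apply,
      LinearMap.toSpanSingleton_apply, one_smul, LinearMap.zero_apply] at h3
    exact hx h3
  have hex : ∃ i, g ∘ₗ e.symm.toLinearMap ∘ₗ DFinsupp.lsingle i ≠ 0 := by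
    by_contra hne
    push Not at hne
    apply hg
    have h4 : g ∘ₗ e.symm.toLinearMap = 0 := by
      apply DFinsupp.lhom_ext'
      intro i
      rw [LinearMap.comp_assoc, hne i, LinearMap.zero_comp]
    apply LinearMap.ext
    intro y
    have h5 := LinearMap.congr_fun h4 (e y)
    simpa using h5
  obtain ⟨i, hi⟩ := hex
  have hSi := hS i
  exact ⟨i, ⟨(LinearEquiv.ofBijective _ (LinearMap.bijective_of_ne_zero hi)).symm⟩⟩

theorem semisimple_list {r : ℕ} (S : Fin r → ModuleCat.{u} R)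
    (hS : ∀ X : ModuleCat.{u} R, IsSimpleModule R X → ∃ i, Nonempty (X ≃ₗ[R] S i))
    (X : ModuleCat.{u} R) (hXf : Module.Finite R X)
    (hX : Ring.jacobson R ^ 1 • (⊤ : Submodule R X) = ⊥) :
    ∃ (a : ℕ) (f : Fin a → Fin r), Nonempty (X ≃ₗ[R] (∀ j, S (f j))) := by
  rw [Submodule.pow_one] at hX
  have h1 : IsSemisimpleModule R X := semisimple_of_jac X hX
  obtain ⟨a, Z, e, hZ⟩ := IsSemisimpleModule.exists_linearEquiv_fin_dfinsupp R X
  have h2 : ∀ j, ∃ i, Nonempty (Z j ≃ₗ[R] S i) := fun j => hS (ModuleCat.of R (Z j)) (hZ j)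
  choose f g using h2
  refine ⟨a, f, ⟨?_⟩⟩
  let e2 : (Π₀ j : Fin a, Z j) ≃ₗ[R] (∀ j, Z j) := DFinsupp.linearEquivFunOnFintype
  let e3 : (∀ j, Z j) ≃ₗ[R] (∀ j, S (f j)) := LinearEquiv.piCongrRight (fun j => (g j).some)
  exact (e.trans e2).trans e3

end

section

variable (k : Type v) [CommRing k] [IsArtinianRing k] {R : Type u} [Ring R] [Algebra k R]
  [Module.Finite k R]

include k in
theorem mainCube (hJ : Ring.jacobson R ^ 3 = ⊥) {r : ℕ} (S : Fin r → ModuleCat.{u} R)
    (hS1 : ∀ i, IsSimpleModule R (S i))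
    (hS : ∀ X : ModuleCat.{u} R, IsSimpleModule R X → ∃ i, Nonempty (X ≃ₗ[R] S i))
    {M : ModuleCat.{u} R} [Module.Finite R M]
    (hAR : ∀ j, 1 ≤ j → j ≤ 2 * r + 2 →
      Subsingleton (Ext M M j) ∧ Subsingleton (Ext M (ModuleCat.of R R) j)) :
    Module.Projective R M := by
  have hR : IsArtinianRing R := isArtinian_of_tower k inferInstance
  exact mainB k (n := 1) le_rfl hJ S (fun X h1 h2 => semisimple_list S hS X h1 h2) hAR

end

end Vale.Agent.P195
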