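import Vale.Agent.P195.Defs
import Vale.Agent.P195.Add

open CategoryTheory Abelian

universe u v w

set_option linter.unusedSectionVars false

namespace Vale.Agent.P195

section

variable {R : Type u} [Ring R]

structure SyzClass {M K : ModuleCat.{u} R} {n : ℕ} (θ : Ext M K n) : Prop where
  inj : ∀ (Y : ModuleCat.{u} R) (i m : ℕ) (h : n + i = m) (x : Ext K Y i), 1 ≤ i →
    θ.comp x h = 0 → x = 0
  surj : ∀ (Y : ModuleCat.{u} R) (i m : ℕ) (h : n + i = m) (z : Ext M Y m),
    ∃ x : Ext K Y i, θ.comp x h = z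

abbrev scOf {K P L : ModuleCat.{u} R} (i : K →ₗ[R] P) (p : P →ₗ[R] L)
    (he : Function.Exact i p) : ShortComplex (ModuleCat.{u} R) :=
  ShortComplex.mk (ModuleCat.ofHom i) (ModuleCat.ofHom p) (by
    apply ModuleCat.hom_ext
    apply LinearMap.ext
    intro x
    exact (he (i x)).2 ⟨x, rfl⟩)

theorem scOf_shortExact {K P L : ModuleCat.{u} R} (i : K →ₗ[R] P) (p : P →ₗ[R] L)
    (he : Function.Exact i p) (hi : Function.Injective i) (hp : Function.Surjective p) :
    (scOf i p he).ShortExact where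
  exact := (ShortComplex.ShortExact.moduleCat_exact_iff_function_exact _).2 he
  mono_f := (ModuleCat.mono_iff_injective _).2 hi
  epi_g := (ModuleCat.epi_iff_surjective _).2 hp

theorem syzClass_zero {M K : ModuleCat.{u} R} (e : K ≅ M) : SyzClass (Ext.mk₀ e.inv) where
  inj Y i m h x hi hx := by
    obtain rfl : m = i := by lia
    have := congrArg (fun z => (Ext.mk₀ e.hom).comp z (zero_add m)) hx
    simpa using this
  surj Y i m h z := by
    obtain rfl : m = i := by lia
    refine ⟨(Ext.mk₀ e.hom).comp z (zero_add m), ?_⟩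
    simp

theorem syzClass_succ {M : ModuleCat.{u} R} {n : ℕ} 
    {S : ShortComplex (ModuleCat.{u} R)} (hS : S.ShortExact) [Projective S.X₂]
    {θ : Ext M S.X₃ n} (hθ : SyzClass θ) :
    SyzClass (θ.comp hS.extClass (rfl : n + 1 = n + 1)) where
  inj Y i m h x hi hx := by
    rw [Ext.comp_assoc θ hS.extClass x rfl (rfl : 1 + i = 1 + i) (by lia)] at hx
    have h1 := hθ.inj Y (1 + i) m (by lia) _ (by lia) hx
    obtain ⟨x₂, hx₂⟩ := Ext.contravariant_sequence_exact₁ hS Y x rfl h1
    obtain ⟨i', rfl⟩ : ∃ i', i = i' + 1 := ⟨i - 1, by lia⟩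
    rw [← hx₂, Ext.eq_zero_of_projective x₂]
    simp
  surj Y i m h z := by
    obtain ⟨y, hy⟩ := hθ.surj Y (1 + i) m (by lia) z
    obtain ⟨x, hx⟩ := Ext.contravariant_sequence_exact₃ hS Y y (by
      have : ∀ (l : ℕ) (hl : l = i + 1) (w : Ext S.X₂ Y l), w = 0 := by
        rintro _ rfl w
        exact Ext.eq_zero_of_projective w
      exact this _ (by lia) _) (rfl : 1 + i = 1 + i)
    refine ⟨x, ?_⟩
    rw [Ext.comp_assoc θ hS.extClass x rfl (rfl : 1 + i = 1 + i) (by lia), hx, hy]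

theorem syz_factor {M : ModuleCat.{u} R} {n : ℕ} 
    {S : ShortComplex (ModuleCat.{u} R)} (hS : S.ShortExact)
    {θ : Ext M S.X₃ n} (hθ : SyzClass θ) {Y : ModuleCat.{u} R} (g : S.X₁ ⟶ Y)
    (hg : (θ.comp hS.extClass (rfl : n + 1 = n + 1)).comp (Ext.mk₀ g) (add_zero _) = 0) :
    ∃ q : S.X₂ ⟶ Y, S.f ≫ q = g := by
  rw [Ext.comp_assoc θ hS.extClass (Ext.mk₀ g) rfl (add_zero 1) (by lia)] at hg
  have h1 := hθ.inj Y 1 _ (by lia) _ (by lia) hg
  obtain ⟨x₂, hx₂⟩ := Ext.contravariant_sequence_exact₁ hS Y _ _ h1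
  obtain ⟨q, rfl⟩ := Ext.homEquiv₀.symm.surjective x₂
  refine ⟨q, ?_⟩
  apply Ext.homEquiv₀.symm.injective
  change Ext.mk₀ (S.f ≫ q) = Ext.mk₀ g
  rw [← Ext.mk₀_comp_mk₀]
  exact hx₂

theorem subsingleton_of_retract {M P F : ModuleCat.{u} R} (a : P ⟶ F) (b : F ⟶ P)
    (hab : a ≫ b = 𝟙 P) (j : ℕ) (h : Subsingleton (Ext M F j)) : Subsingleton (Ext M P j) := by
  refine ⟨fun x y => ?_⟩
  have hx : x = (x.comp (Ext.mk₀ a) (add_zero j)).comp (Ext.mk₀ b) (add_zero j) := by
    simp [hab]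
  have hy : y = (y.comp (Ext.mk₀ a) (add_zero j)).comp (Ext.mk₀ b) (add_zero j) := by
    simp [hab]
  rw [hx, hy, Subsingleton.elim (x.comp (Ext.mk₀ a) (add_zero j))
    (y.comp (Ext.mk₀ a) (add_zero j))]

end

section

variable (k : Type v) [CommRing k] [IsArtinianRing k] {R : Type u} [Ring R] [Algebra k R]
  [Module.Finite k R]

attribute [local instance] kmod kmod_tower linK

theorem subsingleton_of_el {M X : ModuleCat.{u} R} [Module.Finite R M] [Module.Finite R X]
    {j : ℕ} (h : el k M X j = 0) : Subsingleton (Ext M X j) := by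
  have := finite_ext k M X j
  by_contra hne
  rw [not_subsingleton_iff_nontrivial] at hne
  exact (len_pos k (A := Ext M X j)).ne' h

include k in
theorem subsingleton_proj {M P : ModuleCat.{u} R} [Module.Finite R M] [Module.Finite R P]
    [Module.Projective R P] {j : ℕ} (h : Subsingleton (Ext M (ModuleCat.of R R) j)) :
    Subsingleton (Ext M P j) := by
  obtain ⟨n, f, hf⟩ := Module.Finite.exists_fin' R P
  obtain ⟨g, hg⟩ := Module.projective_lifting_property f LinearMap.id hf
  refine subsingleton_of_retract (F := ModuleCat.of R (Fin n → R)) (ModuleCat.ofHom g)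
    (ModuleCat.ofHom f) ?_ j ?_
  · rw [← ModuleCat.ofHom_comp, hg]
    rfl
  · have hfin : Module.Finite R (ModuleCat.of R (Fin n → R)) :=
      inferInstanceAs (Module.Finite R (Fin n → R))
    apply subsingleton_of_el k
    have h1 := el_pi k M j n (fun _ => ModuleCat.of R R)
    have h2 : el k M (ModuleCat.of R R) j = 0 := el_of_subsingleton k M j
    simp only [h2, Finset.sum_const_zero] at h1
    exact h1

end

end Vale.Agent.P195
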